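import Mathlib

/-! Bang's plank theorem for a compact convex set in a finite-dimensional inner product space,
for preimages of arbitrary sets of reals under unit functionals. -/

namespace Vale.Agent.H21.Bang

open MeasureTheory Set
open scoped InnerProductSpace ENNReal

variable {V : Type*} [NormedAddCommGroup V] [InnerProductSpace ℝ V]

/-- Every direction contains a chord of length `t` for any `t` below the minimal width. -/
theorem exists_chord [CompleteSpace V] {C : Set V} (hC : IsCompact C) (hconv : Convex ℝ C)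
    (hne : C.Nonempty) {δ : ℝ}
    (hw : ∀ n : V, ‖n‖ = 1 → ∃ x ∈ C, ∃ y ∈ C, δ ≤ ⟪x - y, n⟫_ℝ)
    {v : V} (hv : ‖v‖ = 1) {t : ℝ} (ht0 : 0 ≤ t) (ht : t < δ) :
    ∃ p ∈ C, p + t • v ∈ C := by
  by_contra hcon
  push Not at hcon
  have hdisj : Disjoint C ((fun x => x + t • v) '' C) := by
    rw [Set.disjoint_left]
    rintro y hy ⟨x, hx, rfl⟩
    exact hcon x hx hy
  have hconv' : Convex ℝ ((fun x => x + t • v) '' C) := by
    have := hconv.translate (t • v)
    simpa [add_comm] using this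
  have hclosed' : IsClosed ((fun x => x + t • v) '' C) :=
    (hC.image (by fun_prop)).isClosed
  obtain ⟨f, a, b, hfa, hab, hfb⟩ := geometric_hahn_banach_compact_closed hconv hC hconv'
    hclosed' hdisj
  -- the functional is represented by a vector
  set m : V := (InnerProductSpace.toDual ℝ V).symm f with hm
  have hfm : ∀ x, f x = ⟪m, x⟫_ℝ := fun x => by
    rw [hm, InnerProductSpace.toDual_symm_apply]
  obtain ⟨c, hc⟩ := hne
  have hm0 : m ≠ 0 := by
    intro h0
    have h1 := hfa c hc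
    have h2 := hfb _ ⟨c, hc, rfl⟩
    rw [hfm, h0, inner_zero_left] at h1 h2
    linarith
  have hmn : 0 < ‖m‖ := norm_pos_iff.2 hm0
  obtain ⟨x, hx, y, hy, hxy⟩ := hw (‖m‖⁻¹ • m) (by
    rw [norm_smul, norm_inv, norm_norm, inv_mul_cancel₀ hmn.ne'])
  have h1 := hfa x hx
  have h2 := hfb _ ⟨y, hy, rfl⟩
  simp only at h2
  rw [hfm] at h1 h2
  rw [inner_add_right, inner_smul_right] at h2
  rw [inner_smul_right, inner_sub_left, real_inner_comm, real_inner_comm m y] at hxy
  have h3 : ⟪m, v⟫_ℝ ≤ ‖m‖ := by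
    have := real_inner_le_norm m v
    rw [hv, mul_one] at this; exact this
  have h4 : δ * ‖m‖ ≤ ⟪m, x⟫_ℝ - ⟪m, y⟫_ℝ := by
    have := mul_le_mul_of_nonneg_right hxy hmn.le
    have h5 : ‖m‖⁻¹ * (⟪m, x⟫_ℝ - ⟪m, y⟫_ℝ) * ‖m‖ = ⟪m, x⟫_ℝ - ⟪m, y⟫_ℝ := by
      field_simp
    linarith
  have h5 : t * ⟪m, v⟫_ℝ ≤ t * ‖m‖ := mul_le_mul_of_nonneg_left h3 ht0
  nlinarith

/-- The inductive step of Bang's argument: a homothetic copy of `C` stays in `C` after all
translations by signed sums. -/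
theorem exists_homothet {C : Set V} (hconv : Convex ℝ C)
    {ι : Type*} [DecidableEq ι] (s : Finset ι) (n : ι → V) (ω : ι → ℝ) (hω : ∀ i, 0 ≤ ω i) {ℓ : ℝ}
    (hch : ∀ i, ∃ p ∈ C, p + ℓ • n i ∈ C) (hℓ : 0 < ℓ) (hs : 2 * ∑ i ∈ s, ω i < ℓ) :
    ∃ c : V, ∀ x ∈ C, ∀ ε : ι → Bool,
      (1 - 2 * (∑ i ∈ s, ω i) / ℓ) • x + c + ∑ i ∈ s, ((if ε i then 1 else -1) * ω i) • n i ∈ C := by
  induction s using Finset.induction_on with
  | empty => exact ⟨0, fun x hx ε => by simpa using hx⟩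
  | insert j s hj ih =>
    rw [Finset.sum_insert hj] at hs
    have hωj := hω j
    obtain ⟨c, hc⟩ := ih (by linarith)
    obtain ⟨p, hp, hp'⟩ := hch j
    set Ss := ∑ i ∈ s, ω i with hSs
    set ρ : ℝ := 1 - 2 * Ss / ℓ with hρ
    have hρ0 : 0 < ρ := by
      rw [hρ, sub_pos, div_lt_one hℓ]; linarith
    set lam : ℝ := 2 * ω j / (ρ * ℓ) with hlam
    have hρℓ : ρ * ℓ = ℓ - 2 * Ss := by rw [hρ]; field_simp
    have hlam0 : 0 ≤ lam := by positivity
    have hlam1 : lam ≤ 1 := by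
      rw [hlam, div_le_one (by positivity), hρℓ]; linarith
    refine ⟨c + ρ • (lam • p + (ω j / ρ) • n j), ?_⟩
    intro x hx ε
    -- the two translated points
    have hy1 : (1 - lam) • x + lam • p ∈ C := hconv hx hp (by linarith) hlam0 (by ring)
    have hy2 : (1 - lam) • x + lam • (p + ℓ • n j) ∈ C :=
      hconv hx hp' (by linarith) hlam0 (by ring)
    have hcoef : ρ * (1 - lam) = 1 - 2 * (ω j + Ss) / ℓ := by
      have h1 : ρ * lam = 2 * ω j / ℓ := by
        rw [hlam]; field_simp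
      have h2 : ρ * (1 - lam) = ρ - ρ * lam := by ring
      rw [h2, h1, hρ]; ring
    have hll : ρ * (lam * ℓ) = 2 * ω j := by
      rw [hlam]; field_simp
    rw [Finset.sum_insert hj, Finset.sum_insert hj, ← hSs, ← hcoef]
    by_cases hε : ε j = true
    · have h := hc _ hy2 ε
      convert h using 1
      rw [hε]
      simp only [if_true, one_mul, smul_add, smul_smul]
      rw [hll]
      have : ρ * (ω j / ρ) = ω j := by field_simp
      rw [this]
      module
    · have h := hc _ hy1 ε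
      convert h using 1
      rw [Bool.not_eq_true] at hε
      rw [hε]
      simp only [Bool.false_eq_true, if_false, smul_add, smul_smul]
      have : ρ * (ω j / ρ) = ω j := by field_simp
      rw [this]
      module

/-- Bang's theorem for finitely many planks. -/
theorem exists_far_point [CompleteSpace V] {C : Set V} (hC : IsCompact C) (hconv : Convex ℝ C)
    (hne : C.Nonempty) {δ : ℝ}
    (hw : ∀ n : V, ‖n‖ = 1 → ∃ x ∈ C, ∃ y ∈ C, δ ≤ ⟪x - y, n⟫_ℝ)
    {ι : Type*} [Fintype ι] (n : ι → V) (hn : ∀ i, ‖n i‖ = 1) (c : ι → ℝ)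
    (ω : ι → ℝ) (hω : ∀ i, 0 < ω i) (hsum : 2 * ∑ i, ω i < δ) :
    ∃ p ∈ C, ∀ i, ω i ≤ |⟪p, n i⟫_ℝ - c i| := by
  classical
  obtain ⟨ℓ, hℓ1, hℓ2⟩ := exists_between hsum
  have hℓ0 : 0 < ℓ := lt_of_le_of_lt (mul_nonneg zero_le_two (Finset.sum_nonneg fun i _ => (hω i).le)) hℓ1
  obtain ⟨c0, hc0⟩ := exists_homothet hconv Finset.univ n ω (fun i => (hω i).le)
    (fun i => exists_chord hC hconv hne hw (hn i) hℓ0.le hℓ2) hℓ0 hℓ1
  obtain ⟨x0, hx0⟩ := hne
  set y0 : V := (1 - 2 * (∑ i, ω i) / ℓ) • x0 + c0 with hy0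
  let σ : (ι → Bool) → ι → ℝ := fun ε i => if ε i then 1 else -1
  let P : (ι → Bool) → V := fun ε => y0 + ∑ i, (σ ε i * ω i) • n i
  obtain ⟨ε, hε⟩ := Finite.exists_max (fun ε : ι → Bool =>
    ‖P ε‖ ^ 2 - 2 * ∑ i, σ ε i * ω i * c i)
  refine ⟨P ε, hc0 x0 hx0 ε, fun j => ?_⟩
  -- flip the sign at `j`
  let ε' : ι → Bool := Function.update ε j (!ε j)
  have hσj : σ ε' j = - σ ε j := by
    simp only [σ, ε', Function.update_self]
    cases ε j <;> simp
  have hσi : ∀ i, i ≠ j → σ ε' i = σ ε i := by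
    intro i hi
    simp only [σ, ε', Function.update_of_ne hi]
  have hσsq : σ ε j * σ ε j = 1 := by
    simp only [σ]; cases ε j <;> simp
  have hsum1 : ∑ i, (σ ε' i * ω i) • n i = ∑ i, (σ ε i * ω i) • n i - (2 * σ ε j * ω j) • n j := by
    rw [← Finset.add_sum_erase _ _ (Finset.mem_univ j),
      ← Finset.add_sum_erase (a := j) _ (fun i => (σ ε i * ω i) • n i) (Finset.mem_univ j)]
    rw [Finset.sum_congr rfl (fun i hi => by rw [hσi i (Finset.ne_of_mem_erase hi)]), hσj]
    module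
  have hsum2 : ∑ i, σ ε' i * ω i * c i = ∑ i, σ ε i * ω i * c i - 2 * σ ε j * ω j * c j := by
    rw [← Finset.add_sum_erase _ _ (Finset.mem_univ j),
      ← Finset.add_sum_erase (a := j) _ (fun i => σ ε i * ω i * c i) (Finset.mem_univ j)]
    rw [Finset.sum_congr rfl (fun i hi => by rw [hσi i (Finset.ne_of_mem_erase hi)]), hσj]
    ring
  have hP : P ε' = P ε - (2 * σ ε j * ω j) • n j := by
    simp only [P]; rw [hsum1]; abel
  have hmax := hε ε'
  rw [hP, hsum2, norm_sub_sq_real, inner_smul_right, norm_smul, hn j] at hmax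
  have hωj := hω j
  have habs : ‖2 * σ ε j * ω j‖ ^ 2 = 4 * ω j ^ 2 := by
    rw [Real.norm_eq_abs, sq_abs]
    have : (2 * σ ε j * ω j) ^ 2 = 4 * (σ ε j * σ ε j) * ω j ^ 2 := by ring
    rw [this, hσsq]; ring
  rw [mul_one, habs] at hmax
  have key : ω j ≤ σ ε j * (⟪P ε, n j⟫_ℝ - c j) := by
    have h1 : ω j * ω j ≤ (σ ε j * (⟪P ε, n j⟫_ℝ - c j)) * ω j := by nlinarith
    exact le_of_mul_le_mul_right h1 hωj
  have hσabs : |σ ε j| = 1 := by
    simp only [σ]; cases ε j <;> simp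
  calc ω j ≤ σ ε j * (⟪P ε, n j⟫_ℝ - c j) := key
    _ ≤ |σ ε j * (⟪P ε, n j⟫_ℝ - c j)| := le_abs_self _
    _ = |⟪P ε, n j⟫_ℝ - c j| := by rw [abs_mul, hσabs, one_mul]

/-- Bang's theorem for preimages of arbitrary sets of reals. -/
theorem bang_sets [CompleteSpace V] {C : Set V} (hC : IsCompact C) (hconv : Convex ℝ C)
    (hne : C.Nonempty) {δ : ℝ}
    (hw : ∀ n : V, ‖n‖ = 1 → ∃ x ∈ C, ∃ y ∈ C, δ ≤ ⟪x - y, n⟫_ℝ)
    {ι : Type*} [Fintype ι] (n : ι → V) (hn : ∀ i, ‖n i‖ = 1) (S : ι → Set ℝ)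
    (hcov : ∀ x ∈ C, ∃ i, ⟪x, n i⟫_ℝ ∈ S i) :
    ENNReal.ofReal δ ≤ ∑ i, volume (S i) := by
  classical
  by_contra hlt
  rw [not_le] at hlt
  have hfin : ∀ i, volume (S i) ≠ ∞ := fun i => by
    have : volume (S i) ≤ ∑ i, volume (S i) :=
      Finset.single_le_sum (f := fun i => volume (S i)) (fun _ _ => zero_le) (Finset.mem_univ i)
    exact ne_top_of_lt (lt_of_le_of_lt this hlt)
  set a : ι → ℝ := fun i => (volume (S i)).toReal with ha
  have hsum : ∑ i, a i < δ := by
    have h1 : ∑ i, volume (S i) = ENNReal.ofReal (∑ i, a i) := by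
      rw [ENNReal.ofReal_sum_of_nonneg (fun i _ => ENNReal.toReal_nonneg)]
      exact Finset.sum_congr rfl fun i _ => (ENNReal.ofReal_toReal (hfin i)).symm
    rw [h1] at hlt
    exact (ENNReal.ofReal_lt_ofReal_iff_of_nonneg
      (Finset.sum_nonneg fun i _ => ENNReal.toReal_nonneg)).1 hlt
  set ε : ℝ := (δ - ∑ i, a i) / (Fintype.card ι + 1) with hε
  have hε0 : 0 < ε := div_pos (by linarith) (by positivity)
  have hU : ∀ i, ∃ U : Set ℝ, S i ⊆ U ∧ IsOpen U ∧ volume U ≤ volume (S i) + ENNReal.ofReal ε :=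
    fun i => (S i).exists_isOpen_le_add volume (by simpa using hε0)
  choose U hSU hUo hUv using hU
  have hUfin : ∀ i, volume (U i) ≠ ∞ := fun i =>
    ne_top_of_le_ne_top (ENNReal.add_ne_top.2 ⟨hfin i, ENNReal.ofReal_ne_top⟩) (hUv i)
  have hUsum : ∑ i, (volume (U i)).toReal < δ := by
    have h1 : ∑ i, (volume (U i)).toReal ≤ ∑ i, (a i + ε) := by
      refine Finset.sum_le_sum fun i _ => ?_
      have := ENNReal.toReal_mono (ENNReal.add_ne_top.2 ⟨hfin i, ENNReal.ofReal_ne_top⟩) (hUv i)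
      rwa [ENNReal.toReal_add (hfin i) ENNReal.ofReal_ne_top, ENNReal.toReal_ofReal hε0.le] at this
    rw [Finset.sum_add_distrib, Finset.sum_const, Finset.card_univ, nsmul_eq_mul] at h1
    have h2 : (Fintype.card ι : ℝ) * ε < δ - ∑ i, a i := by
      rw [hε, mul_div_assoc', div_lt_iff₀ (by positivity)]
      nlinarith
    linarith
  -- Lebesgue number
  obtain ⟨δ₀, hδ₀, hleb⟩ := lebesgue_number_lemma_of_metric (c := fun i => {x : V | ⟪x, n i⟫_ℝ ∈ U i})
    hC (fun i => (hUo i).preimage (by fun_prop)) (fun x hx => by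
      obtain ⟨i, hi⟩ := hcov x hx
      exact Set.mem_iUnion.2 ⟨i, hSU i hi⟩)
  set η : ℝ := δ₀ / 2 with hη
  have hη0 : 0 < η := by positivity
  obtain ⟨R, hR⟩ := hC.isBounded.exists_norm_le
  set M : ℤ := ⌈R / η⌉ + 1 with hM
  let cell : ℤ → Set ℝ := fun k => Set.Ico (k * η) ((k + 1) * η)
  let T : ι → Finset ℤ := fun i => (Finset.Icc (-M) M).filter fun k => cell k ⊆ U i
  have hcellvol : ∀ k, volume (cell k) = ENNReal.ofReal η := by
    intro k
    rw [Real.volume_Ico]
    congr 1; ring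
  have hdisj : ∀ k l : ℤ, k ≠ l → Disjoint (cell k) (cell l) := by
    intro k l hkl
    rw [Set.disjoint_left]
    rintro x ⟨h1, h2⟩ ⟨h3, h4⟩
    have e1 : (k : ℝ) < l + 1 := by
      by_contra h; rw [not_lt] at h
      have := mul_le_mul_of_nonneg_right h hη0.le
      linarith
    have e2 : (l : ℝ) < k + 1 := by
      by_contra h; rw [not_lt] at h
      have := mul_le_mul_of_nonneg_right h hη0.le
      linarith
    have e1' : k < l + 1 := by exact_mod_cast e1
    have e2' : l < k + 1 := by exact_mod_cast e2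
    omega
  have hTcard : ∀ i, ((T i).card : ℝ) * η ≤ (volume (U i)).toReal := by
    intro i
    have h1 : volume (⋃ k ∈ T i, cell k) = ∑ k ∈ T i, volume (cell k) :=
      measure_biUnion_finset (fun k _ l _ hkl => hdisj k l hkl) (fun k _ => measurableSet_Ico)
    have h2 : volume (⋃ k ∈ T i, cell k) ≤ volume (U i) :=
      measure_mono (Set.iUnion₂_subset fun k hk => (Finset.mem_filter.1 hk).2)
    rw [h1, Finset.sum_congr rfl (fun k _ => hcellvol k), Finset.sum_const, nsmul_eq_mul] at h2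
    have h3 := ENNReal.toReal_mono (hUfin i) h2
    rwa [ENNReal.toReal_mul, ENNReal.toReal_natCast, ENNReal.toReal_ofReal hη0.le] at h3
  let J := (i : ι) × (T i)
  set N : ℝ := (Fintype.card J : ℝ) with hN
  have hNη : N * η < δ := by
    have h1 : N = ∑ i, ((T i).card : ℝ) := by
      rw [hN]
      simp only [J, Fintype.card_sigma, Fintype.card_coe]
      push_cast; rfl
    rw [h1, Finset.sum_mul]
    exact lt_of_le_of_lt (Finset.sum_le_sum fun i _ => hTcard i) hUsum
  have hN0 : 0 ≤ N := by positivity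
  set ξ : ℝ := (δ - N * η) / (2 * (N + 1)) with hξ
  have hξ0 : 0 < ξ := div_pos (by linarith) (by positivity)
  obtain ⟨p, hp, hfar⟩ := exists_far_point hC hconv hne hw (ι := J) (fun j => n j.1)
    (fun j => hn j.1) (fun j => ((j.2 : ℤ) + 1 / 2 : ℝ) * η) (fun _ => η / 2 + ξ)
    (fun _ => by positivity) (by
      rw [Finset.sum_const, Finset.card_univ, nsmul_eq_mul, ← hN]
      have h1 : 2 * (N * ξ) < δ - N * η := by
        rw [hξ, show 2 * (N * ((δ - N * η) / (2 * (N + 1)))) = N * (δ - N * η) / (N + 1) by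
          field_simp, div_lt_iff₀ (by positivity)]
        nlinarith
      nlinarith)
  obtain ⟨i, hi⟩ := hleb p hp
  set v : ℝ := ⟪p, n i⟫_ℝ with hv
  set k : ℤ := ⌊v / η⌋ with hk
  have hk1 : (k : ℝ) * η ≤ v := by
    have := Int.floor_le (v / η)
    rw [← hk] at this
    rwa [le_div_iff₀ hη0] at this
  have hk2 : v < ((k : ℝ) + 1) * η := by
    have := Int.lt_floor_add_one (v / η)
    rw [← hk] at this
    rwa [div_lt_iff₀ hη0] at this
  have hcell : cell k ⊆ U i := by
    intro x hx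
    have hball : p + (x - v) • n i ∈ Metric.ball p δ₀ := by
      rw [Metric.mem_ball, dist_eq_norm, add_sub_cancel_left, norm_smul, hn i, mul_one,
        Real.norm_eq_abs, abs_lt]
      obtain ⟨hx1, hx2⟩ := hx
      constructor <;> linarith
    have := hi hball
    simp only [Set.mem_setOf_eq, inner_add_left, inner_smul_left, conj_trivial] at this
    rw [real_inner_self_eq_norm_sq, hn i, ← hv] at this
    simpa using this
  have hvR : |v| ≤ R := by
    have h1 : |v| ≤ ‖p‖ * ‖n i‖ := abs_real_inner_le_norm p (n i)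
    rw [hn i, mul_one] at h1
    exact h1.trans (hR p hp)
  have hkM : k ∈ Finset.Icc (-M) M := by
    rw [Finset.mem_Icc]
    have hRη : R / η ≤ ⌈R / η⌉ := Int.le_ceil _
    have habs := abs_le.1 hvR
    constructor
    · rw [hk, Int.le_floor, hM]
      push_cast
      rw [le_div_iff₀ hη0]
      have : R ≤ (⌈R / η⌉ : ℝ) * η := by rwa [div_le_iff₀ hη0] at hRη
      nlinarith
    · have : (k : ℝ) ≤ (M : ℝ) := by
        have h1 : (k : ℝ) ≤ v / η := Int.floor_le _
        have h2 : v / η ≤ R / η := div_le_div_of_nonneg_right habs.2 hη0.le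
        rw [hM]; push_cast; linarith
      exact_mod_cast this
  have hkT : k ∈ T i := Finset.mem_filter.2 ⟨hkM, hcell⟩
  have := hfar ⟨i, ⟨k, hkT⟩⟩
  simp only at this
  rw [← hv] at this
  have h3 : |v - ((k : ℝ) + 1 / 2) * η| ≤ η / 2 := by
    rw [abs_le]; constructor <;> linarith
  linarith

end Vale.Agent.H21.Bang
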