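import Mathlib

/-! An integral bound for nonnegative concave functions on an interval. -/

namespace Vale.Agent.H21.P243

open MeasureTheory Set
open scoped ENNReal

/-- A supporting line of a concave function at an interior point. -/
theorem exists_support {f : ℝ → ℝ} {a b z₀ : ℝ} (hf : ConcaveOn ℝ (Icc a b) f)
    (hz : z₀ ∈ Ioo a b) :
    ∃ κ : ℝ, ∀ z ∈ Icc a b, f z ≤ f z₀ + κ * (z - z₀) := by
  have hz' : z₀ ∈ Icc a b := Ioo_subset_Icc_self hz
  -- slopes on the right are bounded by slopes on the left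
  have key : ∀ x ∈ Icc a b, ∀ y ∈ Icc a b, x < z₀ → z₀ < y →
      (f y - f z₀) / (y - z₀) ≤ (f z₀ - f x) / (z₀ - x) := by
    intro x hx y hy hxz hzy
    have := hf.slope_anti_adjacent hx hy hxz hzy
    exact this
  set S : Set ℝ := (fun y => (f y - f z₀) / (y - z₀)) '' Ioc z₀ b with hS
  have hSne : S.Nonempty := ⟨_, b, ⟨hz.2, le_rfl⟩, rfl⟩
  have hbd : ∀ x ∈ Icc a b, x < z₀ → ∀ r ∈ S, r ≤ (f z₀ - f x) / (z₀ - x) := by
    rintro x hx hxz r ⟨y, hy, rfl⟩
    exact key x hx y ⟨hz.1.le.trans hy.1.le, hy.2⟩ hxz hy.1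
  have hSbdd : BddAbove S := ⟨_, hbd a ⟨le_rfl, hz.1.le.trans hz.2.le⟩ hz.1⟩
  refine ⟨sSup S, fun z hzI => ?_⟩
  rcases lt_trichotomy z z₀ with h | h | h
  · have h1 : sSup S ≤ (f z₀ - f z) / (z₀ - z) := csSup_le hSne (hbd z hzI h)
    rw [le_div_iff₀ (by linarith)] at h1
    linarith
  · rw [h]; simp
  · have h1 : (f z - f z₀) / (z - z₀) ≤ sSup S := le_csSup hSbdd ⟨z, ⟨h, hzI.2⟩, rfl⟩
    rw [div_le_iff₀ (by linarith)] at h1
    linarith

/-- A nonnegative concave function on `[a,b]` has integral at most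
`f z₀ (b-a)² / (2 min(z₀-a, b-z₀))`. -/
theorem lintegral_concave_le {f : ℝ → ℝ} {a b z₀ : ℝ} (hf : ConcaveOn ℝ (Icc a b) f)
    (h0 : ∀ z ∈ Icc a b, 0 ≤ f z) (hz : z₀ ∈ Ioo a b) :
    ∫⁻ z in Icc a b, ENNReal.ofReal (f z) ≤
      ENNReal.ofReal (f z₀ * (b - a) ^ 2 / (2 * min (z₀ - a) (b - z₀))) := by
  obtain ⟨κ, hκ⟩ := exists_support hf hz
  have hab : a < b := hz.1.trans hz.2
  have ha := hκ a ⟨le_rfl, hab.le⟩
  have hb := hκ b ⟨hab.le, le_rfl⟩
  have ha0 := h0 a ⟨le_rfl, hab.le⟩
  have hb0 := h0 b ⟨hab.le, le_rfl⟩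
  have hf0 := h0 z₀ (Ioo_subset_Icc_self hz)
  have h1 : ∫⁻ z in Icc a b, ENNReal.ofReal (f z) ≤
      ∫⁻ z in Icc a b, ENNReal.ofReal (f z₀ + κ * (z - z₀)) :=
    setLIntegral_mono' measurableSet_Icc fun z hzI => ENNReal.ofReal_le_ofReal (hκ z hzI)
  have h2 : ∫⁻ z in Icc a b, ENNReal.ofReal (f z₀ + κ * (z - z₀)) =
      ENNReal.ofReal (∫ z in Icc a b, (f z₀ + κ * (z - z₀))) := by
    rw [← ofReal_integral_eq_lintegral_ofReal]
    · exact (Continuous.integrableOn_Icc (by fun_prop))
    · filter_upwards [ae_restrict_mem measurableSet_Icc] with z hzI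
      exact (h0 z hzI).trans (hκ z hzI)
  have h3 : ∫ z in Icc a b, (f z₀ + κ * (z - z₀)) = (b - a) * (f z₀ + κ * ((a + b) / 2 - z₀)) := by
    rw [integral_Icc_eq_integral_Ioc, ← intervalIntegral.integral_of_le hab.le]
    rw [intervalIntegral.integral_add (by simp) (by
      apply Continuous.intervalIntegrable; fun_prop)]
    rw [intervalIntegral.integral_const_mul, intervalIntegral.integral_sub (by simp) (by simp)]
    simp only [intervalIntegral.integral_const, smul_eq_mul, integral_id]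
    ring
  refine h1.trans (h2.le.trans ?_)
  rw [h3]
  apply ENNReal.ofReal_le_ofReal
  have hm1 : 0 < z₀ - a := by linarith [hz.1]
  have hm2 : 0 < b - z₀ := by linarith [hz.2]
  rw [le_div_iff₀ (by positivity)]
  rcases le_total (z₀ - a) (b - z₀) with h | h
  · rw [min_eq_left h]
    have e1 : κ * (z₀ - a) ≤ f z₀ := by nlinarith
    have e2 : 0 ≤ (a + b) / 2 - z₀ := by linarith
    have e3 : κ * (z₀ - a) * ((a + b) / 2 - z₀) ≤ f z₀ * ((a + b) / 2 - z₀) :=
      mul_le_mul_of_nonneg_right e1 e2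
    have e4 : (f z₀ + κ * ((a + b) / 2 - z₀)) * (2 * (z₀ - a)) ≤ f z₀ * (b - a) := by nlinarith
    have := mul_le_mul_of_nonneg_left e4 (by linarith : 0 ≤ b - a)
    nlinarith
  · rw [min_eq_right h]
    have e1 : -(κ * (b - z₀)) ≤ f z₀ := by nlinarith
    have e2 : 0 ≤ z₀ - (a + b) / 2 := by linarith
    have e3 : -(κ * (b - z₀)) * (z₀ - (a + b) / 2) ≤ f z₀ * (z₀ - (a + b) / 2) :=
      mul_le_mul_of_nonneg_right e1 e2
    have e4 : (f z₀ + κ * ((a + b) / 2 - z₀)) * (2 * (b - z₀)) ≤ f z₀ * (b - a) := by nlinarith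
    have := mul_le_mul_of_nonneg_left e4 (by linarith : 0 ≤ b - a)
    nlinarith

/-- The tent function has integral `(b-a)²/4`. -/
theorem lintegral_tent {a b c : ℝ} (hab : a < b) (hc : 0 ≤ c) :
    ENNReal.ofReal (c * (b - a) ^ 2 / 4) ≤
      ∫⁻ z in Ioo a b, ENNReal.ofReal (c * min (z - a) (b - z)) := by
  have hcont : Continuous fun z => c * min (z - a) (b - z) := by fun_prop
  rw [← ofReal_integral_eq_lintegral_ofReal]
  · apply ENNReal.ofReal_le_ofReal
    rw [← integral_Ioc_eq_integral_Ioo, ← intervalIntegral.integral_of_le hab.le]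
    set m := (a + b) / 2 with hm
    rw [← intervalIntegral.integral_add_adjacent_intervals (b := m)
      (hcont.intervalIntegrable _ _) (hcont.intervalIntegrable _ _)]
    have e1 : ∫ z in a..m, c * min (z - a) (b - z) = ∫ z in a..m, c * (z - a) := by
      apply intervalIntegral.integral_congr
      intro z hz
      rw [uIcc_of_le (by linarith)] at hz
      simp only
      rw [min_eq_left (by linarith [hz.2])]
    have e2 : ∫ z in m..b, c * min (z - a) (b - z) = ∫ z in m..b, c * (b - z) := by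
      apply intervalIntegral.integral_congr
      intro z hz
      rw [uIcc_of_le (by linarith)] at hz
      simp only
      rw [min_eq_right (by linarith [hz.1])]
    rw [e1, e2]
    rw [intervalIntegral.integral_const_mul, intervalIntegral.integral_sub (by simp) (by simp),
      intervalIntegral.integral_const_mul, intervalIntegral.integral_sub (by simp) (by simp)]
    simp only [intervalIntegral.integral_const, smul_eq_mul, integral_id]
    rw [hm]
    apply le_of_eq
    ring
  · exact (hcont.integrableOn_Icc).mono_set Ioo_subset_Icc_self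
  · filter_upwards [ae_restrict_mem measurableSet_Ioo] with z hz
    have h1 : 0 ≤ z - a := by linarith [hz.1]
    have h2 : 0 ≤ b - z := by linarith [hz.2]
    have := le_min h1 h2
    positivity

end Vale.Agent.H21.P243
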