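import Mathlib

/-! Definitions for cylinder coverings of convex bodies in a Euclidean space. -/

namespace Vale.Agent.H21.P243

open MeasureTheory
open scoped ENNReal

variable {V : Type} [NormedAddCommGroup V] [InnerProductSpace ℝ V] [FiniteDimensional ℝ V]

/-- A convex body: compact, convex, with nonempty interior. -/
def IsConvexBody (K : Set V) : Prop :=
  IsCompact K ∧ Convex ℝ K ∧ (interior K).Nonempty

/-- The cylinder `B + ℝ u` over a base `B` in the plane orthogonal to `u`: all points whose
orthogonal projection to that plane lies in `B`. -/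
def cylinder (u : V) (B : Set (ℝ ∙ u)ᗮ) : Set V :=
  {x | (ℝ ∙ u)ᗮ.orthogonalProjectionOnto x ∈ B}

/-- The orthogonal projection of `K` to the plane orthogonal to `u`. -/
def shadow (u : V) (K : Set V) : Set (ℝ ∙ u)ᗮ :=
  (ℝ ∙ u)ᗮ.orthogonalProjectionOnto '' K

variable [MeasurableSpace V] [BorelSpace V]

/-- The smallest area of an orthogonal projection of `K` to a plane. -/
noncomputable def minShadow (K : Set V) : ℝ≥0∞ :=
  ⨅ (u : V) (_ : ‖u‖ = 1), volume (shadow u K)

end Vale.Agent.H21.P243
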