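import Mathlib
import Vale.Agent.H21.P243Defs

/-! Fubini formulas in planes orthogonal to a unit vector of three-space. -/

namespace Vale.Agent.H21.P243

open MeasureTheory Set
open scoped ENNReal InnerProductSpace

variable {V : Type} [NormedAddCommGroup V] [InnerProductSpace ℝ V]
  [FiniteDimensional ℝ V] [MeasurableSpace V] [BorelSpace V]
  [hdim : Fact (Module.finrank ℝ V = 2 + 1)]

/-- The point `z e + s f` in the plane orthogonal to `u`. -/
noncomputable def planePt {u e f : V} (he : ⟪u, e⟫_ℝ = 0) (hf : ⟪u, f⟫_ℝ = 0)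
    (q : ℝ × ℝ) : (ℝ ∙ u)ᗮ :=
  ⟨q.1 • e + q.2 • f, by
    rw [Submodule.mem_orthogonal_singleton_iff_inner_right, inner_add_right, inner_smul_right,
      inner_smul_right, he, hf]; simp⟩

theorem exists_planeEquiv {u e f : V} (hu : ‖u‖ = 1) (hen : ‖e‖ = 1) (hfn : ‖f‖ = 1)
    (he : ⟪u, e⟫_ℝ = 0) (hf : ⟪u, f⟫_ℝ = 0) (hef : ⟪e, f⟫_ℝ = 0) :
    ∃ Φ : (ℝ × ℝ) ≃ᵐ (ℝ ∙ u)ᗮ, MeasurePreserving Φ volume volume ∧
      ∀ q, Φ q = planePt he hf q := by
  have hu0 : u ≠ 0 := by intro h; rw [h, norm_zero] at hu; norm_num at hu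
  have hfr : Module.finrank ℝ (ℝ ∙ u)ᗮ = 2 := Submodule.finrank_orthogonal_span_singleton hu0
  let e' : (ℝ ∙ u)ᗮ := ⟨e, Submodule.mem_orthogonal_singleton_iff_inner_right.2 he⟩
  let f' : (ℝ ∙ u)ᗮ := ⟨f, Submodule.mem_orthogonal_singleton_iff_inner_right.2 hf⟩
  let v : Fin 2 → (ℝ ∙ u)ᗮ := ![e', f']
  have hon : Orthonormal ℝ v := by
    rw [orthonormal_iff_ite]
    intro i j
    fin_cases i <;> fin_cases j
    · simp [v, e', hen]
    · simpa [v, e', f'] using hef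
    · simpa [v, e', f', real_inner_comm] using hef
    · simp [v, f', hfn]
  obtain ⟨b, hb⟩ := Orthonormal.exists_orthonormalBasis_extension_of_card_eq (𝕜 := ℝ)
    (E := (ℝ ∙ u)ᗮ) (ι := Fin 2) (by simpa using hfr) (v := v) (s := Set.univ)
    (by
      have := hon
      rw [orthonormal_iff_ite] at this ⊢
      intro i j
      have h := this i.1 j.1
      simp only [Set.domRestrict_apply]
      rw [h]
      simp [Subtype.ext_iff])
  have hb0 : b 0 = e' := hb 0 (mem_univ _)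
  have hb1 : b 1 = f' := hb 1 (mem_univ _)
  let Φ : (ℝ × ℝ) ≃ᵐ (ℝ ∙ u)ᗮ :=
    (MeasurableEquiv.finTwoArrow (α := ℝ)).symm.trans
      ((MeasurableEquiv.toLp 2 (Fin 2 → ℝ)).trans b.measurableEquiv.symm)
  refine ⟨Φ, ?_, ?_⟩
  · refine (volume_preserving_finTwoArrow ℝ).symm.trans ?_
    refine (EuclideanSpace.volume_preserving_symm_measurableEquiv_toLp (Fin 2)).symm.trans ?_
    exact b.measurePreserving_measurableEquiv.symm
  · intro q
    have h1 : Φ q = b.repr.symm (WithLp.toLp 2 ![q.1, q.2]) := rfl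
    rw [h1, ← b.sum_repr_symm]
    rw [Fin.sum_univ_two, hb0, hb1]
    ext1
    simp [planePt, e', f']

/-- Projection of a decomposed vector. -/
theorem proj_decomp {u e f : V} (he : ⟪u, e⟫_ℝ = 0) (hf : ⟪u, f⟫_ℝ = 0)
    (c z s : ℝ) :
    (ℝ ∙ u)ᗮ.orthogonalProjectionOnto (c • u + z • e + s • f) = planePt he hf (z, s) := by
  apply Subtype.ext
  rw [Submodule.coe_orthogonalProjectionOnto_apply]
  refine Submodule.eq_starProjection_of_mem_orthogonal' (z := c • u)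
    (planePt he hf (z, s)).2 ?_ ?_
  · exact Submodule.le_orthogonal_orthogonal _
      (Submodule.smul_mem _ _ (Submodule.mem_span_singleton_self u))
  · simp only [planePt]
    abel

theorem expand {u e f : V} (hu : ‖u‖ = 1) (hen : ‖e‖ = 1) (hfn : ‖f‖ = 1)
    (he : ⟪u, e⟫_ℝ = 0) (hf : ⟪u, f⟫_ℝ = 0) (hef : ⟪e, f⟫_ℝ = 0) (x : V) :
    x = ⟪u, x⟫_ℝ • u + ⟪e, x⟫_ℝ • e + ⟪f, x⟫_ℝ • f := by
  let v : Fin 3 → V := ![u, e, f]
  have hon : Orthonormal ℝ v := by
    rw [orthonormal_iff_ite]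
    intro i j
    fin_cases i <;> fin_cases j <;>
      simp [v, hu, hen, hfn, he, hf, hef, real_inner_comm u, real_inner_comm e,
        inner_self_eq_norm_sq_to_K]
  obtain ⟨b, hb⟩ := Orthonormal.exists_orthonormalBasis_extension_of_card_eq (𝕜 := ℝ)
    (E := V) (ι := Fin 3) (by simpa using hdim.out) (v := v) (s := Set.univ)
    (by
      have := hon
      rw [orthonormal_iff_ite] at this ⊢
      intro i j
      have h := this i.1 j.1
      simp only [Set.domRestrict_apply]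
      rw [h]
      simp [Subtype.ext_iff])
  have hb0 : b 0 = u := hb 0 (mem_univ _)
  have hb1 : b 1 = e := hb 1 (mem_univ _)
  have hb2 : b 2 = f := hb 2 (mem_univ _)
  have := b.sum_repr' x
  rw [Fin.sum_univ_three, hb0, hb1, hb2] at this
  exact this.symm

/-- Fubini for a set in the plane orthogonal to `u`. -/
theorem volume_plane {u e f : V} (hu : ‖u‖ = 1) (hen : ‖e‖ = 1) (hfn : ‖f‖ = 1)
    (he : ⟪u, e⟫_ℝ = 0) (hf : ⟪u, f⟫_ℝ = 0) (hef : ⟪e, f⟫_ℝ = 0)
    {B : Set (ℝ ∙ u)ᗮ} (hB : MeasurableSet B) :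
    volume B = ∫⁻ z : ℝ, volume {s : ℝ | planePt he hf (z, s) ∈ B} := by
  obtain ⟨Φ, hΦ, hΦq⟩ := exists_planeEquiv hu hen hfn he hf hef
  rw [← hΦ.measure_preimage_equiv, Measure.volume_eq_prod,
    Measure.prod_apply (Φ.measurable hB)]
  refine lintegral_congr fun z => ?_
  congr 1
  ext s
  simp only [Set.mem_preimage, hΦq]
  rfl

theorem measurable_slice {u e f : V} (hu : ‖u‖ = 1) (hen : ‖e‖ = 1) (hfn : ‖f‖ = 1)
    (he : ⟪u, e⟫_ℝ = 0) (hf : ⟪u, f⟫_ℝ = 0) (hef : ⟪e, f⟫_ℝ = 0)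
    {B : Set (ℝ ∙ u)ᗮ} (hB : MeasurableSet B) :
    Measurable fun z : ℝ => volume {s : ℝ | planePt he hf (z, s) ∈ B} := by
  obtain ⟨Φ, hΦ, hΦq⟩ := exists_planeEquiv hu hen hfn he hf hef
  have := measurable_measure_prodMk_left (ν := (volume : Measure ℝ)) (Φ.measurable hB)
  convert this using 2 with z
  congr 1
  ext s
  simp only [Set.mem_preimage, hΦq]
  rfl

/-- The area of a shadow as an integral of slice lengths. -/
theorem volume_shadow {u e f : V} (hu : ‖u‖ = 1) (hen : ‖e‖ = 1) (hfn : ‖f‖ = 1)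
    (he : ⟪u, e⟫_ℝ = 0) (hf : ⟪u, f⟫_ℝ = 0) (hef : ⟪e, f⟫_ℝ = 0)
    {K : Set V} (hK : IsCompact K) :
    volume (shadow u K) =
      ∫⁻ z : ℝ, volume {s : ℝ | ∃ x ∈ K, ⟪e, x⟫_ℝ = z ∧ ⟪f, x⟫_ℝ = s} := by
  have hm : MeasurableSet (shadow u K) :=
    (hK.image ((ℝ ∙ u)ᗮ.orthogonalProjectionOnto.continuous)).isClosed.measurableSet
  rw [volume_plane hu hen hfn he hf hef hm]
  refine lintegral_congr fun z => ?_
  congr 1
  ext s
  simp only [shadow, Set.mem_image, Set.mem_ofPred_eq]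
  constructor
  · rintro ⟨x, hx, hxs⟩
    refine ⟨x, hx, ?_⟩
    have h1 := expand hu hen hfn he hf hef x
    rw [h1, proj_decomp he hf] at hxs
    have h2 : ⟪e, x⟫_ℝ • e + ⟪f, x⟫_ℝ • f = z • e + s • f := congrArg Subtype.val hxs
    have h3 := congrArg (fun y => ⟪e, y⟫_ℝ) h2
    have h4 := congrArg (fun y => ⟪f, y⟫_ℝ) h2
    have hfe : ⟪f, e⟫_ℝ = 0 := by rw [real_inner_comm]; exact hef
    simp only [inner_add_right, inner_smul_right, real_inner_self_eq_norm_sq, hen, hfn, hef,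
      hfe] at h3 h4
    constructor <;> linarith
  · rintro ⟨x, hx, h1, h2⟩
    refine ⟨x, hx, ?_⟩
    conv_lhs => rw [expand hu hen hfn he hf hef x]
    rw [proj_decomp he hf, h1, h2]

end Vale.Agent.H21.P243
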