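import Mathlib
import Vale.Agent.H21.Bang
import Vale.Agent.H21.P243Geom
import Vale.Agent.H21.P243Conc

/-! The half-area inequality for cylinder coverings whose axes are parallel to a common plane. -/

namespace Vale.Agent.H21.P243

open MeasureTheory Set
open scoped ENNReal InnerProductSpace

variable {V : Type} [NormedAddCommGroup V] [InnerProductSpace ℝ V]

/-- Width data of `K` in direction `f` at height `z` along `e`. -/
noncomputable def wid (e f : V) (K : Set V) (z : ℝ) : ℝ :=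
  sSup ((fun q : V × V => ⟪f, q.1 - q.2⟫_ℝ) ''
    {q : V × V | q.1 ∈ K ∧ q.2 ∈ K ∧ ⟪e, q.1⟫_ℝ = z ∧ ⟪e, q.2⟫_ℝ = z})

theorem pairs_compact {e : V} {K : Set V} (hK : IsCompact K) (z : ℝ) :
    IsCompact {q : V × V | q.1 ∈ K ∧ q.2 ∈ K ∧ ⟪e, q.1⟫_ℝ = z ∧ ⟪e, q.2⟫_ℝ = z} := by
  have h1 : IsCompact (K ×ˢ K) := hK.prod hK
  have h2 : IsClosed {q : V × V | ⟪e, q.1⟫_ℝ = z ∧ ⟪e, q.2⟫_ℝ = z} :=
    (isClosed_eq (by fun_prop) continuous_const).inter (isClosed_eq (by fun_prop) continuous_const)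
  convert h1.inter_right h2 using 1
  ext q
  simp only [Set.mem_ofPred_eq, Set.mem_inter_iff, Set.mem_prod]
  tauto

theorem wid_attained {e f : V} {K : Set V} (hK : IsCompact K) {z : ℝ}
    (hz : ∃ x ∈ K, ⟪e, x⟫_ℝ = z) :
    ∃ x ∈ K, ∃ y ∈ K, ⟪e, x⟫_ℝ = z ∧ ⟪e, y⟫_ℝ = z ∧ wid e f K z = ⟪f, x - y⟫_ℝ := by
  obtain ⟨x₀, hx₀, hz₀⟩ := hz
  have hne : {q : V × V | q.1 ∈ K ∧ q.2 ∈ K ∧ ⟪e, q.1⟫_ℝ = z ∧ ⟪e, q.2⟫_ℝ = z}.Nonempty :=
    ⟨(x₀, x₀), hx₀, hx₀, hz₀, hz₀⟩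
  obtain ⟨q, hq, hmax⟩ := (pairs_compact (e := e) hK z).exists_sSup_image_eq hne
    (f := fun q : V × V => ⟪f, q.1 - q.2⟫_ℝ) (by fun_prop)
  exact ⟨q.1, hq.1, q.2, hq.2.1, hq.2.2.1, hq.2.2.2, hmax⟩

theorem le_wid {e f : V} {K : Set V} (hK : IsCompact K) {z : ℝ} {x y : V} (hx : x ∈ K)
    (hy : y ∈ K) (hxz : ⟪e, x⟫_ℝ = z) (hyz : ⟪e, y⟫_ℝ = z) :
    ⟪f, x - y⟫_ℝ ≤ wid e f K z := by
  refine le_csSup ?_ ⟨(x, y), ⟨hx, hy, hxz, hyz⟩, rfl⟩
  exact ((pairs_compact (e := e) hK z).image (by fun_prop)).bddAbove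

theorem volume_slice_le {e f : V} {K : Set V} (hK : IsCompact K) (z : ℝ) :
    volume {s : ℝ | ∃ x ∈ K, ⟪e, x⟫_ℝ = z ∧ ⟪f, x⟫_ℝ = s} ≤ ENNReal.ofReal (wid e f K z) := by
  refine (Real.volume_le_diam _).trans ?_
  refine Metric.ediam_le fun s hs t ht => ?_
  obtain ⟨x, hx, hxz, rfl⟩ := hs
  obtain ⟨y, hy, hyz, rfl⟩ := ht
  rw [edist_dist, Real.dist_eq]
  apply ENNReal.ofReal_le_ofReal
  rw [abs_le]
  have h1 := le_wid (f := f) hK hx hy hxz hyz
  have h2 := le_wid (f := f) hK hy hx hyz hxz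
  rw [inner_sub_right] at h1 h2
  constructor <;> linarith

variable [FiniteDimensional ℝ V] [MeasurableSpace V] [BorelSpace V]
  [hdim : Fact (Module.finrank ℝ V = 2 + 1)]

/-- The key area bound: the smallest shadow area is at most
`width(z₀) (b-a)² / (2 min(z₀-a, b-z₀))` for each direction in the plane. -/
theorem shadow_le {u e f : V} (hu : ‖u‖ = 1) (hen : ‖e‖ = 1) (hfn : ‖f‖ = 1)
    (he : ⟪u, e⟫_ℝ = 0) (hf : ⟪u, f⟫_ℝ = 0) (hef : ⟪e, f⟫_ℝ = 0)
    {K : Set V} (hK : IsCompact K) (hconv : Convex ℝ K) {a b z₀ : ℝ}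
    (ha : ∃ x ∈ K, ⟪e, x⟫_ℝ = a) (hb : ∃ x ∈ K, ⟪e, x⟫_ℝ = b)
    (hr : ∀ x ∈ K, ⟪e, x⟫_ℝ ∈ Icc a b) (hz : z₀ ∈ Ioo a b) :
    volume (shadow u K) ≤
      ENNReal.ofReal (wid e f K z₀ * (b - a) ^ 2 / (2 * min (z₀ - a) (b - z₀))) := by
  have hab : a < b := hz.1.trans hz.2
  obtain ⟨xa, hxa, hea⟩ := ha
  obtain ⟨xb, hxb, heb⟩ := hb
  -- every height in `[a,b]` is attained
  have hatt : ∀ z ∈ Icc a b, ∃ x ∈ K, ⟪e, x⟫_ℝ = z := by
    intro z hz
    set t : ℝ := (z - a) / (b - a) with ht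
    have hba : 0 < b - a := by linarith
    have ht0 : 0 ≤ t := div_nonneg (by linarith [hz.1]) hba.le
    have ht1 : t ≤ 1 := by rw [ht, div_le_one hba]; linarith [hz.2]
    refine ⟨(1 - t) • xa + t • xb, hconv hxa hxb (by linarith) ht0 (by ring), ?_⟩
    rw [inner_add_right, inner_smul_right, inner_smul_right, hea, heb, ht]
    field_simp
    ring
  have hconc : ConcaveOn ℝ (Icc a b) (wid e f K) := by
    refine ⟨convex_Icc a b, ?_⟩
    intro z₁ hz₁ z₂ hz₂ p q hp hq hpq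
    obtain ⟨x₁, hx₁, y₁, hy₁, hxz₁, hyz₁, hw₁⟩ := wid_attained (f := f) hK (hatt z₁ hz₁)
    obtain ⟨x₂, hx₂, y₂, hy₂, hxz₂, hyz₂, hw₂⟩ := wid_attained (f := f) hK (hatt z₂ hz₂)
    have hx := hconv hx₁ hx₂ hp hq hpq
    have hy := hconv hy₁ hy₂ hp hq hpq
    have := le_wid (e := e) (f := f) (z := p • z₁ + q • z₂) hK hx hy
      (by rw [inner_add_right, inner_smul_right, inner_smul_right, hxz₁, hxz₂]; rfl)
      (by rw [inner_add_right, inner_smul_right, inner_smul_right, hyz₁, hyz₂]; rfl)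
    refine le_trans (le_of_eq ?_) this
    rw [hw₁, hw₂]
    simp only [inner_sub_right, inner_add_right, inner_smul_right, smul_eq_mul]
    ring
  have hnn : ∀ z ∈ Icc a b, 0 ≤ wid e f K z := by
    intro z hz
    obtain ⟨x, hx, hxz⟩ := hatt z hz
    have := le_wid (f := f) hK hx hx hxz hxz
    simpa using this
  rw [volume_shadow hu hen hfn he hf hef hK]
  calc ∫⁻ z : ℝ, volume {s : ℝ | ∃ x ∈ K, ⟪e, x⟫_ℝ = z ∧ ⟪f, x⟫_ℝ = s}
      = ∫⁻ z in Icc a b, volume {s : ℝ | ∃ x ∈ K, ⟪e, x⟫_ℝ = z ∧ ⟪f, x⟫_ℝ = s} := by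
        rw [← lintegral_indicator measurableSet_Icc]
        refine lintegral_congr fun z => ?_
        by_cases hzI : z ∈ Icc a b
        · rw [Set.indicator_of_mem hzI]
        · rw [Set.indicator_of_notMem hzI]
          have : {s : ℝ | ∃ x ∈ K, ⟪e, x⟫_ℝ = z ∧ ⟪f, x⟫_ℝ = s} = ∅ := by
            ext s
            simp only [Set.mem_ofPred_eq, Set.mem_empty_iff_false, iff_false]
            rintro ⟨x, hx, hxz, -⟩
            exact hzI (hxz ▸ hr x hx)
          rw [this, measure_empty]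
    _ ≤ ∫⁻ z in Icc a b, ENNReal.ofReal (wid e f K z) :=
        lintegral_mono fun z => volume_slice_le hK z
    _ ≤ _ := lintegral_concave_le hconc hnn hz

/-- The half-area inequality for coplanar axes, for measurable bases and a unit normal. -/
theorem coplanar_aux (K : Set V) (hK : IsCompact K) (hconv : Convex ℝ K)
    (hint : (interior K).Nonempty) {m : ℕ} (u : Fin m → V) (hu : ∀ i, ‖u i‖ = 1)
    (B : ∀ i, Set (ℝ ∙ (u i))ᗮ) (hB : ∀ i, MeasurableSet (B i)) (w : V) (hw : ‖w‖ = 1)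
    (hcop : ∀ i, ⟪u i, w⟫_ℝ = 0) (hcov : K ⊆ ⋃ i, cylinder (u i) (B i)) :
    minShadow K / 2 ≤ ∑ i, volume (B i) := by
  classical
  -- an orthonormal basis with last vector `w`
  obtain ⟨b, hbw⟩ : ∃ b : OrthonormalBasis (Fin 3) ℝ V, b 2 = w := by
    have hon : Orthonormal ℝ (({2} : Set (Fin 3)).domRestrict (fun _ => w)) := by
      rw [orthonormal_iff_ite]
      intro i j
      have : i = j := Subsingleton.elim _ _
      simp [this, hw]
    obtain ⟨b, hb⟩ := Orthonormal.exists_orthonormalBasis_extension_of_card_eq (𝕜 := ℝ)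
      (E := V) (ι := Fin 3) (by simpa using hdim.out) (v := fun _ => w) (s := {2}) hon
    exact ⟨b, hb 2 rfl⟩
  have hb01 : ⟪b 0, b 1⟫_ℝ = 0 := b.orthonormal.2 (by decide)
  have hb10 : ⟪b 1, b 0⟫_ℝ = 0 := b.orthonormal.2 (by decide)
  have hb0w : ⟪b 0, w⟫_ℝ = 0 := by rw [← hbw]; exact b.orthonormal.2 (by decide)
  have hb1w : ⟪b 1, w⟫_ℝ = 0 := by rw [← hbw]; exact b.orthonormal.2 (by decide)
  have hwb0 : ⟪w, b 0⟫_ℝ = 0 := by rw [real_inner_comm]; exact hb0w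
  have hwb1 : ⟪w, b 1⟫_ℝ = 0 := by rw [real_inner_comm]; exact hb1w
  have hb00 : ⟪b 0, b 0⟫_ℝ = 1 := by rw [real_inner_self_eq_norm_sq, b.orthonormal.1 0]; norm_num
  have hb11 : ⟪b 1, b 1⟫_ℝ = 1 := by rw [real_inner_self_eq_norm_sq, b.orthonormal.1 1]; norm_num
  have hww : ⟪w, w⟫_ℝ = 1 := by rw [real_inner_self_eq_norm_sq, hw]; norm_num
  -- unit vectors of the plane
  let nH : ℝ → ℝ → V := fun α β => α • b 0 + β • b 1
  have hnH : ∀ α β γ δ : ℝ, ⟪nH α β, nH γ δ⟫_ℝ = α * γ + β * δ := by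
    intro α β γ δ
    simp only [nH, inner_add_left, inner_add_right, inner_smul_left, inner_smul_right,
      conj_trivial, hb00, hb11, hb01, hb10]
    ring
  have hnHw : ∀ α β : ℝ, ⟪nH α β, w⟫_ℝ = 0 := by
    intro α β
    simp only [nH, inner_add_left, inner_smul_left, conj_trivial, hb0w, hb1w]; ring
  have hwnH : ∀ α β : ℝ, ⟪w, nH α β⟫_ℝ = 0 := by
    intro α β; rw [real_inner_comm]; exact hnHw α β
  have hnorm : ∀ α β : ℝ, α ^ 2 + β ^ 2 = 1 → ‖nH α β‖ = 1 := by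
    intro α β h
    have h1 : ‖nH α β‖ ^ 2 = 1 := by
      rw [← real_inner_self_eq_norm_sq, hnH]; linarith
    have h2 : 0 ≤ ‖nH α β‖ := norm_nonneg _
    nlinarith
  -- the extreme heights
  have hne : K.Nonempty := hint.mono interior_subset
  obtain ⟨xa, hxa, hmin⟩ := hK.exists_isMinOn hne (f := fun x => ⟪w, x⟫_ℝ) (by fun_prop)
  obtain ⟨xb, hxb, hmax⟩ := hK.exists_isMaxOn hne (f := fun x => ⟪w, x⟫_ℝ) (by fun_prop)
  set a : ℝ := ⟪w, xa⟫_ℝ with ha
  set b' : ℝ := ⟪w, xb⟫_ℝ with hb'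
  have hr : ∀ x ∈ K, ⟪w, x⟫_ℝ ∈ Icc a b' := fun x hx => ⟨hmin hx, hmax hx⟩
  have hab : a < b' := by
    obtain ⟨x, hx⟩ := hint
    obtain ⟨ε, hε, hball⟩ := Metric.isOpen_iff.1 isOpen_interior x hx
    have h1 : x + (ε / 2) • w ∈ K := interior_subset (hball (by
      rw [Metric.mem_ball, dist_eq_norm, add_sub_cancel_left, norm_smul, hw, mul_one,
        Real.norm_eq_abs, abs_of_pos (by positivity)]
      linarith))
    have h2 := (hr _ h1).2
    have h3 := (hr _ (interior_subset hx)).1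
    rw [inner_add_right, inner_smul_right, hww] at h2
    linarith
  -- the planar slices
  let lift : ℝ → EuclideanSpace ℝ (Fin 2) → V := fun z y => nH (y 0) (y 1) + z • w
  let C : ℝ → Set (EuclideanSpace ℝ (Fin 2)) := fun z => {y | lift z y ∈ K}
  have hliftc : ∀ z, Continuous (lift z) := by
    intro z
    simp only [lift, nH]
    fun_prop
  have hexp : ∀ x : V, x = lift ⟪w, x⟫_ℝ (WithLp.toLp 2 ![⟪b 0, x⟫_ℝ, ⟪b 1, x⟫_ℝ]) := by
    intro x
    have h := b.sum_repr' x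
    rw [Fin.sum_univ_three, hbw] at h
    simp only [lift, nH]
    exact h.symm
  have hliftw : ∀ z y, ⟪w, lift z y⟫_ℝ = z := by
    intro z y
    simp only [lift]
    rw [inner_add_right, hwnH, inner_smul_right, hww]; ring
  have hCcomp : ∀ z, IsCompact (C z) := by
    intro z
    have hcl : IsClosed (C z) := hK.isClosed.preimage (hliftc z)
    obtain ⟨R, hR⟩ := hK.isBounded.exists_norm_le
    refine Metric.isCompact_of_isClosed_isBounded hcl
      ((Metric.isBounded_iff_subset_closedBall 0).2 ⟨R, fun y hy => ?_⟩)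
    have h1 : ‖lift z y‖ ≤ R := hR _ hy
    have h2 : ‖lift z y‖ ^ 2 = ‖y‖ ^ 2 + z ^ 2 := by
      have e1 : ⟪nH (y 0) (y 1), nH (y 0) (y 1)⟫_ℝ = y 0 * y 0 + y 1 * y 1 := hnH _ _ _ _
      have e2 : ⟪nH (y 0) (y 1), w⟫_ℝ = 0 := hnHw _ _
      have e3 : ⟪w, nH (y 0) (y 1)⟫_ℝ = 0 := hwnH _ _
      have e4 : lift z y = nH (y 0) (y 1) + z • w := rfl
      rw [← real_inner_self_eq_norm_sq, e4]
      generalize nH (y 0) (y 1) = v at e1 e2 e3
      rw [inner_add_left, inner_add_right, inner_add_right, e1, inner_smul_right, e2,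
        inner_smul_left, inner_smul_left, e3, inner_smul_right, hww,
        EuclideanSpace.real_norm_sq_eq, Fin.sum_univ_two]
      simp only [conj_trivial]
      ring
    have h3 : ‖y‖ ^ 2 ≤ R ^ 2 := by
      have : ‖lift z y‖ ^ 2 ≤ R ^ 2 := by
        have := norm_nonneg (lift z y)
        nlinarith
      nlinarith [sq_nonneg z]
    rw [Metric.mem_closedBall, dist_zero_right]
    have hR0 : 0 ≤ R := (norm_nonneg _).trans h1
    exact abs_le_of_sq_le_sq h3 hR0 |> (abs_norm y ▸ ·)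
  have hCconv : ∀ z, Convex ℝ (C z) := by
    intro z y₁ hy₁ y₂ hy₂ p q hp hq hpq
    have := hconv hy₁ hy₂ hp hq hpq
    change lift z (p • y₁ + q • y₂) ∈ K
    convert this using 1
    simp only [lift, nH, PiLp.add_apply, PiLp.smul_apply, smul_eq_mul]
    have : z • w = p • (z • w) + q • (z • w) := by rw [← add_smul, hpq, one_smul]
    conv_lhs => rw [this]
    module
  -- coordinates of the axes
  let α : Fin m → ℝ := fun i => ⟪b 0, u i⟫_ℝ
  let β : Fin m → ℝ := fun i => ⟪b 1, u i⟫_ℝ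
  have huαβ : ∀ i, u i = nH (α i) (β i) := by
    intro i
    have h := hexp (u i)
    have h0 : ⟪w, u i⟫_ℝ = 0 := by rw [real_inner_comm]; exact hcop i
    rw [h0] at h
    simpa [lift, α, β] using h
  have hαβ : ∀ i, α i ^ 2 + β i ^ 2 = 1 := by
    intro i
    have h1 : ⟪u i, u i⟫_ℝ = 1 := by rw [real_inner_self_eq_norm_sq, hu i]; norm_num
    rw [huαβ i, hnH] at h1
    linarith
  -- normals in the plane
  let n : Fin m → EuclideanSpace ℝ (Fin 2) := fun i => WithLp.toLp 2 ![β i, -α i]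
  have hn : ∀ i, ‖n i‖ = 1 := by
    intro i
    have h1 : ‖n i‖ ^ 2 = 1 := by
      rw [EuclideanSpace.real_norm_sq_eq, Fin.sum_univ_two]
      simp only [n]
      change β i ^ 2 + (-α i) ^ 2 = 1
      linarith [hαβ i]
    have h2 : 0 ≤ ‖n i‖ := norm_nonneg _
    nlinarith
  let f : Fin m → V := fun i => nH (β i) (-α i)
  have hfn : ∀ i, ‖f i‖ = 1 := fun i => hnorm _ _ (by linarith [hαβ i])
  have huf : ∀ i, ⟪u i, f i⟫_ℝ = 0 := fun i => by
    simp only [f]; rw [huαβ i, hnH]; ring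
  have hwf : ∀ i, ⟪w, f i⟫_ℝ = 0 := fun i => hwnH _ _
  let S : Fin m → ℝ → Set ℝ := fun i z => {s | planePt (hcop i) (huf i) (z, s) ∈ B i}
  -- the covering of the slices
  have hCcov : ∀ z, ∀ y ∈ C z, ∃ i, ⟪y, n i⟫_ℝ ∈ S i z := by
    intro z y hy
    obtain ⟨i, hi⟩ := Set.mem_iUnion.1 (hcov hy)
    refine ⟨i, ?_⟩
    have hin : ⟪y, n i⟫_ℝ = y 0 * β i - y 1 * α i := by
      rw [PiLp.inner_apply, Fin.sum_univ_two]
      simp only [n, RCLike.inner_apply, conj_trivial]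
      change β i * y 0 + (-α i) * y 1 = _
      ring
    have hdec : lift z y = (y 0 * α i + y 1 * β i) • u i + z • w + ⟪y, n i⟫_ℝ • f i := by
      rw [hin, huαβ i]
      simp only [lift, f, nH, smul_add, smul_smul]
      have h1 := hαβ i
      have e0 : y 0 = (y 0 * α i + y 1 * β i) * α i + (y 0 * β i - y 1 * α i) * β i := by
        linear_combination (-y 0) * h1
      have e1 : y 1 = (y 0 * α i + y 1 * β i) * β i + (y 0 * β i - y 1 * α i) * (-α i) := by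
        linear_combination (-y 1) * h1
      conv_lhs => rw [e0, e1]
      module
    have hi' : (ℝ ∙ (u i))ᗮ.orthogonalProjectionOnto (lift z y) ∈ B i := hi
    rw [hdec, proj_decomp (hcop i) (huf i)] at hi'
    exact hi'
  -- the minimal shadow is finite
  set A : ℝ≥0∞ := minShadow K with hA
  have hAle : ∀ v : V, ‖v‖ = 1 → A ≤ volume (shadow v K) := fun v hv => iInf₂_le v hv
  set mid : ℝ := (a + b') / 2 with hmid
  have hbnd : ∀ γ δ : ℝ, γ ^ 2 + δ ^ 2 = 1 → ∀ z₀ ∈ Ioo a b',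
      A ≤ ENNReal.ofReal (wid w (nH γ δ) K z₀ * (b' - a) ^ 2 /
        (2 * min (z₀ - a) (b' - z₀))) := by
    intro γ δ h z₀ hz₀
    refine (hAle (nH (-δ) γ) (hnorm _ _ (by linarith))).trans ?_
    exact shadow_le (hnorm _ _ (by linarith)) hw (hnorm _ _ h) (hnHw _ _)
      (by rw [hnH]; ring) (hwnH _ _) hK hconv ⟨xa, hxa, rfl⟩ ⟨xb, hxb, rfl⟩ hr hz₀
  have hAfin : A ≠ ∞ := by
    refine ne_top_of_le_ne_top ENNReal.ofReal_ne_top (hbnd 1 0 (by norm_num) mid ?_)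
    constructor <;> rw [hmid] <;> linarith
  set A' : ℝ := A.toReal with hA'
  have hAA' : A = ENNReal.ofReal A' := (ENNReal.ofReal_toReal hAfin).symm
  have hA'0 : 0 ≤ A' := ENNReal.toReal_nonneg
  -- lower bound for the widths
  have hwid : ∀ z₀ ∈ Ioo a b', ∀ γ δ : ℝ, γ ^ 2 + δ ^ 2 = 1 →
      2 * A' / (b' - a) ^ 2 * min (z₀ - a) (b' - z₀) ≤ wid w (nH γ δ) K z₀ := by
    intro z₀ hz₀ γ δ h
    have h1 := hbnd γ δ h z₀ hz₀
    have hm : 0 < min (z₀ - a) (b' - z₀) := lt_min (by linarith [hz₀.1]) (by linarith [hz₀.2])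
    have hw0 : 0 ≤ wid w (nH γ δ) K z₀ := by
      have hz' : z₀ ∈ Icc a b' := Ioo_subset_Icc_self hz₀
      set t : ℝ := (z₀ - a) / (b' - a) with ht
      have hba : 0 < b' - a := by linarith
      have ht0 : 0 ≤ t := div_nonneg (by linarith [hz'.1]) hba.le
      have ht1 : t ≤ 1 := by rw [ht, div_le_one hba]; linarith [hz'.2]
      have hx : (1 - t) • xa + t • xb ∈ K := hconv hxa hxb (by linarith) ht0 (by ring)
      have hxz : ⟪w, (1 - t) • xa + t • xb⟫_ℝ = z₀ := by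
        rw [inner_add_right, inner_smul_right, inner_smul_right, ← ha, ← hb', ht]
        field_simp
        ring
      have := le_wid (f := nH γ δ) hK hx hx hxz hxz
      simpa using this
    rw [hAA', ENNReal.ofReal_le_ofReal_iff (by positivity), le_div_iff₀ (by positivity)] at h1
    have hba : 0 < (b' - a) ^ 2 := by
      have : 0 < b' - a := by linarith
      positivity
    rw [div_mul_eq_mul_div, div_le_iff₀ hba]
    linarith
  -- Bang's theorem on each slice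
  have hslice : ∀ z ∈ Ioo a b',
      ENNReal.ofReal (2 * A' / (b' - a) ^ 2 * min (z - a) (b' - z)) ≤ ∑ i, volume (S i z) := by
    intro z hz
    have hz' : z ∈ Icc a b' := Ioo_subset_Icc_self hz
    have hpt : ∃ x ∈ K, ⟪w, x⟫_ℝ = z := by
      set t : ℝ := (z - a) / (b' - a) with ht
      have hba : 0 < b' - a := by linarith
      have ht0 : 0 ≤ t := div_nonneg (by linarith [hz'.1]) hba.le
      have ht1 : t ≤ 1 := by rw [ht, div_le_one hba]; linarith [hz'.2]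
      refine ⟨(1 - t) • xa + t • xb, hconv hxa hxb (by linarith) ht0 (by ring), ?_⟩
      rw [inner_add_right, inner_smul_right, inner_smul_right, ← ha, ← hb', ht]
      field_simp
      ring
    have hCne : (C z).Nonempty := by
      obtain ⟨x, hx, hxz⟩ := hpt
      refine ⟨WithLp.toLp 2 ![⟪b 0, x⟫_ℝ, ⟪b 1, x⟫_ℝ], ?_⟩
      change lift z _ ∈ K
      rw [← hxz, ← hexp x]
      exact hx
    refine Bang.bang_sets (hCcomp z) (hCconv z) hCne ?_ n hn (fun i => S i z) (hCcov z)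
    intro ν hν
    have hν' : ν 0 ^ 2 + ν 1 ^ 2 = 1 := by
      have := EuclideanSpace.real_norm_sq_eq ν
      rw [hν, Fin.sum_univ_two] at this
      linarith
    obtain ⟨x, hx, y, hy, hxz, hyz, hwxy⟩ := wid_attained (f := nH (ν 0) (ν 1)) hK hpt
    refine ⟨WithLp.toLp 2 ![⟪b 0, x⟫_ℝ, ⟪b 1, x⟫_ℝ], ?_,
      WithLp.toLp 2 ![⟪b 0, y⟫_ℝ, ⟪b 1, y⟫_ℝ], ?_, ?_⟩
    · change lift z _ ∈ K
      rw [← hxz, ← hexp x]; exact hx
    · change lift z _ ∈ K
      rw [← hyz, ← hexp y]; exact hy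
    · refine (hwid z hz _ _ hν').trans (le_of_eq ?_)
      rw [hwxy]
      have e1 : ⟪nH (ν 0) (ν 1), x - y⟫_ℝ =
          ν 0 * (⟪b 0, x⟫_ℝ - ⟪b 0, y⟫_ℝ) + ν 1 * (⟪b 1, x⟫_ℝ - ⟪b 1, y⟫_ℝ) := by
        simp only [nH, inner_add_left, inner_smul_left, inner_sub_right, conj_trivial]
        ring
      have e2 : ∀ p q : EuclideanSpace ℝ (Fin 2), ⟪p, q⟫_ℝ = p 0 * q 0 + p 1 * q 1 := by
        intro p q
        rw [PiLp.inner_apply, Fin.sum_univ_two]
        simp only [RCLike.inner_apply, conj_trivial]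
        ring
      rw [e1, e2]
      simp only [PiLp.sub_apply]
      simp
      try ring
  -- integrate
  have hvol : ∀ i, volume (B i) = ∫⁻ z : ℝ, volume (S i z) := fun i =>
    volume_plane (hu i) hw (hfn i) (hcop i) (huf i) (hwf i) (hB i)
  have hmeas : ∀ i, Measurable fun z => volume (S i z) := fun i =>
    measurable_slice (hu i) hw (hfn i) (hcop i) (huf i) (hwf i) (hB i)
  calc A / 2 = ENNReal.ofReal (2 * A' / (b' - a) ^ 2 * (b' - a) ^ 2 / 4) := by
        have hba : (b' - a) ^ 2 ≠ 0 := by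
          have : 0 < b' - a := by linarith
          positivity
        rw [div_mul_cancel₀ _ hba, hAA', show (2 * A' / 4) = A' / 2 by ring,
          ENNReal.ofReal_div_of_pos (by norm_num)]
        norm_num
    _ ≤ ∫⁻ z in Ioo a b', ENNReal.ofReal (2 * A' / (b' - a) ^ 2 * min (z - a) (b' - z)) :=
        lintegral_tent hab (by positivity)
    _ ≤ ∫⁻ z in Ioo a b', ∑ i, volume (S i z) :=
        setLIntegral_mono' measurableSet_Ioo hslice
    _ ≤ ∫⁻ z, ∑ i, volume (S i z) := setLIntegral_le_lintegral _ _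
    _ = ∑ i, ∫⁻ z, volume (S i z) := lintegral_finsetSum _ fun i _ => hmeas i
    _ = ∑ i, volume (B i) := Finset.sum_congr rfl fun i _ => (hvol i).symm

end Vale.Agent.H21.P243
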